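import Vale.Agent.P329.GroupPart

/-!
# P329: languages recognized by a finite group with an abelian normal subgroup of prime index
have generalized star height at most one
-/

namespace Vale.Agent.Results.P329.AbelianPrimeIndex

open Vale.Agent.P329

/-- Let `G` be a finite group with an abelian normal subgroup `N` of prime index.  For every finite
alphabet `α`, every assignment `φ : α → G` of group elements to letters (that is, every monoid
morphism from the words over `α` to `G`) and every subset `T` of `G`, the language of all words
whose image lies in `T` is denoted by a generalized regular expression of star height at most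
one. -/
theorem result {G : Type} [Group G] [Finite G] (N : Subgroup G) [N.Normal]
    (hN : ∀ a ∈ N, ∀ b ∈ N, a * b = b * a) (hp : N.index.Prime)
    {α : Type} [Finite α] (φ : α → G) (T : Set G) :
    ∃ e : GRE α, e.sh ≤ 1 ∧ ∀ w : List α, w ∈ e.lang ↔ (w.map φ).prod ∈ T := by
  obtain ⟨e, he, hs⟩ := gshLE_of_abelian_normal_prime_index N hN hp φ T
  refine ⟨e, hs, ?_⟩
  intro w
  rw [he]
  exact mem_langOf

end Vale.Agent.Results.P329.AbelianPrimeIndex
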