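import Vale.Agent.P329.ElemAb
import Vale.Agent.P329.N3.Main

/-!
# P329: languages recognized by the groups of a pseudovariety generated by class-three nilpotent
groups and abelian-by-(elementary abelian) groups have generalized star height at most one
-/

namespace Vale.Agent.Results.P329.H19_Pseudovariety

open Vale.Agent.P329
open scoped commutatorElement

/-- Let `K` be a finite group that divides a finite direct product of finite groups `H i`
(there are a finite group `G`, a surjective morphism `π : G → K` and morphisms `f i : G → H i`
that are jointly injective), where every factor `H i` is either nilpotent of class at most three,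
or has an abelian normal subgroup `N` with `H i / N` an elementary abelian `p`-group for some prime
`p` (the prime may depend on `i`).  Let `L` be a language over a finite alphabet `α` recognized by
`K`: membership in `L` depends only on the image of the word under a monoid morphism `η` from the
free monoid over `α` to `K`.  Then `L` is denoted by a generalized regular expression of star
height at most one. -/
theorem result {α : Type} [Finite α] (L : Language α)
    {K : Type} [Group K] [Finite K] (η : FreeMonoid α →* K)
    (hL : ∀ u v : FreeMonoid α, η u = η v →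
      (FreeMonoid.toList u ∈ L ↔ FreeMonoid.toList v ∈ L))
    {G : Type} [Group G] [Finite G] (π : G →* K) (hπ : Function.Surjective π)
    {ι : Type} [Finite ι] (H : ι → Type) [∀ i, Group (H i)] [∀ i, Finite (H i)]
    (f : ∀ i, G →* H i) (hf : ∀ g : G, (∀ i, f i g = 1) → g = 1)
    (hH : ∀ i, (∃ _ : Group.IsNilpotent (H i), Group.nilpotencyClass (H i) ≤ 3) ∨
      (∃ (N : Subgroup (H i)) (p : ℕ), N.Normal ∧ p.Prime ∧
        (∀ a ∈ N, ∀ b ∈ N, a * b = b * a) ∧ (∀ g : H i, g ^ p ∈ N) ∧
        (∀ g h : H i, g * h * g⁻¹ * h⁻¹ ∈ N))) :
    ∃ e : GRE α, e.lang = L ∧ e.sh ≤ 1 := by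
  classical
  -- lift the letters to `G`
  choose s hs using hπ
  let φ : α → G := fun a => s (η (FreeMonoid.of a))
  -- every coordinate is measurable
  have hmeas : ∀ i, Meas 1 (fun w : List α => (w.map (fun a => f i (φ a))).prod) := by
    intro i b
    rcases hH i with ⟨hnil, hcl⟩ | ⟨N, p, hNn, hp, hN, hpow, hcomm⟩
    · have hbot : Subgroup.lowerCentralSeries (⊤ : Subgroup (H i)) 3 = ⊥ :=
        Subgroup.lowerCentralSeries_eq_bot_iff_nilpotencyClass_le.2 hcl
      have h3 : ∀ a b c d : H i, ⁅⁅⁅a, b⁆, c⁆, d⁆ = 1 := by
        intro a b c d
        have hmem : ⁅⁅⁅a, b⁆, c⁆, d⁆ ∈ Subgroup.lowerCentralSeries (⊤ : Subgroup (H i)) 3 := by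
          simp only [Subgroup.lowerCentralSeries_succ, Subgroup.lowerCentralSeries_zero]
          exact Subgroup.commutator_mem_commutator
            (Subgroup.commutator_mem_commutator
              (Subgroup.commutator_mem_commutator (Subgroup.mem_top a) (Subgroup.mem_top b))
              (Subgroup.mem_top c)) (Subgroup.mem_top d)
        rw [hbot] at hmem
        exact Subgroup.mem_bot.1 hmem
      exact (gshLE_of_class_three h3 (fun a => f i (φ a)) {b}).congr
        (by intro w; simp [mem_langOf])
    · exact (gshLE_of_abelian_by_elementary N hN p hp hpow hcomm (fun a => f i (φ a)) {b}).congr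
        (by intro w; simp [mem_langOf])
  have hpi := Meas.pi hmeas
  -- the value of a word in `G`
  have hfprod : ∀ (i : ι) (w : List α), (w.map (fun a => f i (φ a))).prod = f i (w.map φ).prod := by
    intro i w
    rw [map_list_prod, List.map_map]
    rfl
  have hηprod : ∀ w : List α, η (FreeMonoid.ofList w) = π (w.map φ).prod := by
    intro w
    induction w with
    | nil => simp
    | cons a w ih =>
      rw [FreeMonoid.ofList_cons, map_mul, ih, List.map_cons, List.prod_cons, map_mul]
      congr 1
      exact (hs _).symm
  have hinj : ∀ x y : G, (∀ i, f i x = f i y) → x = y := by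
    intro x y h
    have : x * y⁻¹ = 1 := hf _ (fun i => by rw [map_mul, map_inv, h i, mul_inv_cancel])
    exact mul_inv_eq_one.1 this
  have hfin := hpi.of_factor L (by
    intro w w' h
    have hxy : (w.map φ).prod = (w'.map φ).prod := by
      apply hinj
      intro i
      rw [← hfprod, ← hfprod]
      exact congrFun h i
    have := hL (FreeMonoid.ofList w) (FreeMonoid.ofList w') (by rw [hηprod, hηprod, hxy])
    simpa using this)
  exact hfin

end Vale.Agent.Results.P329.H19_Pseudovariety
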