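import Vale.Agent.P329.ElemAb

/-!
# P329: languages recognized by a finite group that is abelian-by-(elementary abelian `p`-group)
have generalized star height at most one
-/

namespace Vale.Agent.Results.P329.H98_AbelianByElemAb

open Vale.Agent.P329

/-- Let `p` be a prime and let `G` be a finite group with an abelian normal subgroup `N` such that
`G / N` is an elementary abelian `p`-group (all `p`-th powers and all commutators of `G` lie in
`N`).  For every finite alphabet `α`, every assignment `φ : α → G` of group elements to letters
(that is, every monoid morphism from the words over `α` to `G`) and every subset `T` of `G`, the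
language of all words whose image lies in `T` is denoted by a generalized regular expression of
star height at most one. -/
theorem result {G : Type} [Group G] [Finite G] (N : Subgroup G) [N.Normal]
    (hN : ∀ a ∈ N, ∀ b ∈ N, a * b = b * a) (p : ℕ) (hp : p.Prime)
    (hpow : ∀ g : G, g ^ p ∈ N) (hcomm : ∀ g h : G, g * h * g⁻¹ * h⁻¹ ∈ N)
    {α : Type} [Finite α] (φ : α → G) (T : Set G) :
    ∃ e : GRE α, e.sh ≤ 1 ∧ ∀ w : List α, w ∈ e.lang ↔ (w.map φ).prod ∈ T := by
  obtain ⟨e, he, hs⟩ := gshLE_of_abelian_by_elementary N hN p hp hpow hcomm φ T
  refine ⟨e, hs, ?_⟩
  intro w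
  rw [he]
  exact mem_langOf

end Vale.Agent.Results.P329.H98_AbelianByElemAb
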