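import Vale.Agent.P329.N3.Main

/-!
# P329: languages recognized by finite nilpotent groups of class at most three have generalized
star height at most one
-/

namespace Vale.Agent.Results.P329.H98_NilpotentClass3

open Vale.Agent.P329
open scoped commutatorElement

/-- Let `G` be a finite nilpotent group of nilpotency class at most three.  For every finite
alphabet `α`, every assignment `φ : α → G` of group elements to letters (that is, every monoid
morphism from the words over `α` to `G`) and every subset `T` of `G`, the language of all words
whose image lies in `T` is denoted by a generalized regular expression of star height at most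
one. -/
theorem result {G : Type} [Group G] [Finite G] [Group.IsNilpotent G]
    (hG : Group.nilpotencyClass G ≤ 3)
    {α : Type} [Finite α] (φ : α → G) (T : Set G) :
    ∃ e : GRE α, e.sh ≤ 1 ∧ ∀ w : List α, w ∈ e.lang ↔ (w.map φ).prod ∈ T := by
  have hbot : Subgroup.lowerCentralSeries (⊤ : Subgroup G) 3 = ⊥ :=
    Subgroup.lowerCentralSeries_eq_bot_iff_nilpotencyClass_le.2 hG
  have h3 : ∀ a b c d : G, ⁅⁅⁅a, b⁆, c⁆, d⁆ = 1 := by
    intro a b c d
    have hmem : ⁅⁅⁅a, b⁆, c⁆, d⁆ ∈ Subgroup.lowerCentralSeries (⊤ : Subgroup G) 3 := by
      simp only [Subgroup.lowerCentralSeries_succ, Subgroup.lowerCentralSeries_zero]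
      exact Subgroup.commutator_mem_commutator
        (Subgroup.commutator_mem_commutator
          (Subgroup.commutator_mem_commutator (Subgroup.mem_top a) (Subgroup.mem_top b))
          (Subgroup.mem_top c)) (Subgroup.mem_top d)
    rw [hbot] at hmem
    exact Subgroup.mem_bot.1 hmem
  obtain ⟨e, he, hs⟩ := gshLE_of_class_three h3 φ T
  refine ⟨e, hs, ?_⟩
  intro w
  rw [he]
  exact mem_langOf

end Vale.Agent.Results.P329.H98_NilpotentClass3
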